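import Mathlib
import Vale.Agent.Lib.P028.Main
import Vale.Agent.Lib.P028.GcdSum

open MeasureTheory
open scoped Classical

namespace Vale.Agent.Results.P028.BoundedDivisors

/-- For every real shift `γ`, every `ψ ≥ 0` and every bound `T`: if the Duffin-Schaeffer sum
`∑ φ(q) ψ(q) / q`, restricted to the integers `q` with at most `T` divisors, diverges, then for
almost every real `x` there are infinitely many `q > 0` with `|q x - a - γ| < ψ q` for some
integer `a`. -/
theorem result (γ : ℝ) (ψ : ℕ → ℝ) (hψ : ∀ q, 0 ≤ ψ q) (T : ℕ)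
    (hdiv : ¬ Summable (fun q : ℕ =>
      if q.divisors.card ≤ T then (q.totient : ℝ) / q * ψ q else 0)) :
    ∀ᵐ x : ℝ, {q : ℕ | 0 < q ∧ ∃ a : ℤ, |(q : ℝ) * x - a - γ| < ψ q}.Infinite := by
  set S : Set ℕ := {q | q.divisors.card ≤ T} with hSdef
  have hS : ∀ q' ∈ S, ∑ q ∈ (Finset.range q').filter (fun q => q ∈ S), (Nat.gcd q q' : ℝ)
      ≤ (T : ℝ) * q' := by
    intro q' hq'
    rcases Nat.eq_zero_or_pos q' with h0 | hpos
    · subst h0; simp
    · have h1 : ∑ q ∈ (Finset.range q').filter (fun q => q ∈ S), (Nat.gcd q q' : ℝ)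
          ≤ ∑ q ∈ Finset.range q', (Nat.gcd q q' : ℝ) :=
        Finset.sum_le_sum_of_subset_of_nonneg (Finset.filter_subset _ _)
          (fun i _ _ => Nat.cast_nonneg _)
      have h2 : ∑ q ∈ Finset.range q', (Nat.gcd q q' : ℝ) ≤ (q' : ℝ) * q'.divisors.card := by
        exact_mod_cast Vale.Agent.Lib.P028.sum_gcd_le q' hpos
      have h3 : ((q'.divisors.card : ℕ) : ℝ) ≤ T := by exact_mod_cast hq'
      have h4 : (0 : ℝ) ≤ q' := Nat.cast_nonneg _
      nlinarith
  have hdiv' : ¬ Summable (S.indicator ψ) := by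
    intro hsum
    apply hdiv
    refine Summable.of_nonneg_of_le (fun q => ?_) (fun q => ?_) hsum
    · split_ifs
      · exact mul_nonneg (by positivity) (hψ q)
      · exact le_refl _
    · by_cases hq : q.divisors.card ≤ T
      · have hqS : q ∈ S := hq
        rw [if_pos hq, Set.indicator_of_mem hqS]
        have hle : (q.totient : ℝ) / q ≤ 1 := by
          apply div_le_one_of_le₀ _ (Nat.cast_nonneg _)
          exact_mod_cast Nat.totient_le q
        calc (q.totient : ℝ) / q * ψ q ≤ 1 * ψ q := mul_le_mul_of_nonneg_right hle (hψ q)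
          _ = ψ q := one_mul _
      · have hqS : q ∉ S := hq
        rw [if_neg hq, Set.indicator_of_notMem hqS]
  have h := Vale.Agent.Lib.P028.real_main S T
    (fun q' hq' => by convert hS q' hq') (fun _ => γ) ψ hψ hdiv'
  filter_upwards [h] with x hx
  refine hx.mono ?_
  rintro q ⟨_, hq0, hq⟩
  exact ⟨hq0, hq⟩

end Vale.Agent.Results.P028.BoundedDivisors
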