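import Mathlib
import Vale.Agent.Lib.P028.Main

open MeasureTheory
open scoped Classical

namespace Vale.Agent.Results.P028.GcdSumCriterion

/-- Let `S` be a set of natural numbers with `∑_{q < q', q ∈ S} gcd(q, q') ≤ C q'` for all
`q' ∈ S`.  For all targets `γ q` (possibly depending on `q`) and all `ψ ≥ 0` with
`∑_{q ∈ S} ψ q = ∞`, almost every real `x` admits infinitely many `q ∈ S`, `q > 0`, with
`|q x - a - γ q| < ψ q` for some integer `a`. -/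
theorem result (S : Set ℕ) (C : ℝ)
    (hS : ∀ q' ∈ S, ∑ q ∈ (Finset.range q').filter (fun q => q ∈ S), (Nat.gcd q q' : ℝ) ≤ C * q')
    (γ : ℕ → ℝ) (ψ : ℕ → ℝ) (hψ : ∀ q, 0 ≤ ψ q)
    (hdiv : ¬ Summable (S.indicator ψ)) :
    ∀ᵐ x : ℝ, {q : ℕ | q ∈ S ∧ 0 < q ∧ ∃ a : ℤ, |(q : ℝ) * x - a - γ q| < ψ q}.Infinite :=
  Vale.Agent.Lib.P028.real_main S C hS γ ψ hψ hdiv

end Vale.Agent.Results.P028.GcdSumCriterion
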